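import Mathlib
import Vale.Agent.Lib.P045.Fast.N42.All

/-!
Ryser's conjecture for `4`-partite hypergraphs with matching number at most `2`.
A `4`-partite `4`-uniform hypergraph is given by its set `H` of edges, each a tuple `Fin 4 → α`;
the vertices are the pairs `(i, a)` of a part `i` and a label `a`.
-/
namespace Vale.Agent.Results.P045.FourPartiteNuTwo

open Vale.Agent.Lib.P045.Fast

/-- A `4`-partite `4`-uniform hypergraph without three pairwise disjoint edges has a vertex cover
with at most `6` vertices. -/
theorem result {α : Type*} (H : Finset (Fin 4 → α))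
    (hν : ∀ a ∈ H, ∀ b ∈ H, ∀ c ∈ H, (∀ i, a i ≠ b i) → (∀ i, a i ≠ c i) → (∀ i, b i ≠ c i) → False) :
    ∃ C : Finset (Fin 4 × α), C.card ≤ 6 ∧ ∀ e ∈ H, ∃ i, (i, e i) ∈ C := by
  apply N42.cover H
  intro L hL hp
  match L, hL, hp with
  | [], _, _ => simp
  | [_], _, _ => simp
  | [_, _], _, _ => simp
  | a :: b :: c :: l, hL, hp =>
    exfalso
    have h1 := List.pairwise_cons.1 hp
    have h2 := List.pairwise_cons.1 h1.2
    exact hν a (hL a (by simp)) b (hL b (by simp)) c (hL c (by simp))
      (h1.1 b (by simp)) (h1.1 c (by simp)) (h2.1 c (by simp))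

end Vale.Agent.Results.P045.FourPartiteNuTwo
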